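import Vale.Agent.P105.Final

open MeasureTheory
open scoped ENNReal

namespace Vale.Agent.Results.P105.RationalL2

open Vale.Agent.P105

/-- For every `k ≥ 1` and every `lam > 0` with `lam ^ k ∈ {2/3, 3/4, 4/5}` (in particular for
`lam = 2/3, 3/4, 4/5`), the Bernoulli convolution `ν_lam` has a density in `L²`. -/
theorem result : ∀ k : ℕ, 1 ≤ k → ∀ lam : ℝ, 0 < lam →
    (lam ^ k = 2 / 3 ∨ lam ^ k = 3 / 4 ∨ lam ^ k = 4 / 5) →
    (1 / 2 < lam ∧ lam < 1) ∧ IsProbabilityMeasure (bernoulliConv lam) ∧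
    ∃ f : ℝ → ℝ≥0∞, Measurable f ∧ ∫⁻ x, f x ^ 2 < ⊤ ∧
      bernoulliConv lam = volume.withDensity f := by
  intro k hk lam h0 h
  have h1 : lam < 1 := by
    by_contra hcon
    push Not at hcon
    have h2 : 1 ≤ lam ^ k := one_le_pow₀ hcon
    rcases h with h | h | h <;> · rw [h] at h2; norm_num at h2
  have h2 : 1 / 2 < lam := by
    by_contra hcon
    push Not at hcon
    have h2 : lam ^ k ≤ lam := pow_le_of_le_one h0.le h1.le (by omega)
    rcases h with h | h | h <;> · rw [h] at h2; linarith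
  refine ⟨⟨h2, h1⟩, isProb_bernoulliConv h0 h1, ?_⟩
  rcases h with h | h | h
  · exact density_of_bounded (p := 2) (q := 3) (m := 1) (by norm_num) (by norm_num) le_rfl hk
      Chk.N23m1.bounded h0 (by rw [h]; norm_num)
  · exact density_of_bounded (p := 3) (q := 4) (m := 1) (by norm_num) (by norm_num) le_rfl hk
      Chk.N34m1.bounded h0 (by rw [h]; norm_num)
  · exact density_of_bounded (p := 4) (q := 5) (m := 1) (by norm_num) (by norm_num) le_rfl hk
      Chk.N45m1.bounded h0 (by rw [h]; norm_num)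

end Vale.Agent.Results.P105.RationalL2
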