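import Vale.Agent.P105.Salem.Main

open MeasureTheory

namespace Vale.Agent.Results.P105.SalemSingular

open Vale.Agent.P105

/-- There is `lam ∈ (1/2, 1)` such that `lam⁻¹` is not a Pisot number and the Bernoulli
convolution `ν_lam` is singular: it gives full mass to a Borel set of Lebesgue measure zero.
(`lam⁻¹ = 1.8832...` is the Salem number of degree four with minimal polynomial
`x^4 - 2 x^3 + x^2 - 2 x + 1`.) -/
theorem result : ∃ lam : ℝ, 1 / 2 < lam ∧ lam < 1 ∧
    lam ^ 4 - 2 * lam ^ 3 + lam ^ 2 - 2 * lam + 1 = 0 ∧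
    ¬ IsPisot lam⁻¹ ∧
    IsProbabilityMeasure (bernoulliConv lam) ∧
    ∃ A : Set ℝ, MeasurableSet A ∧ bernoulliConv lam A = 1 ∧ volume A = 0 := by
  obtain ⟨A, hA, h1, h2⟩ := singular_lmb
  refine ⟨lmb, lmb_mem.1, lmb_mem.2, lmb_root, lmb_inv_not_pisot, inferInstance, A, hA, ?_, h2⟩
  have h3 := prob_compl_eq_zero_iff (μ := bernoulliConv lmb) hA
  exact h3.mp h1

end Vale.Agent.Results.P105.SalemSingular
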